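import Crest.Agent.Helper22.S0010.Glue
import Crest.Agent.Helper71.S0010.LLfRef
import Crest.Agent.Helper91.S0010.FTBridge
import Crest.Agent.Helper4.S0010.Norm

/-!
# Row 9 / S0010, work package CHAIN: the existence theorem (E)

`E`: under the hypotheses of S0010, every compatible `Θ : K₁(K)/p ≃ K₁(L)/p` is induced, up to a
non-zero scalar, by a ring homomorphism `K →+* L`.

Composition of
* FT (helper91, `FTBridge`): `K^p` is infinite; `L^p(x) ≠ L`;
* LLf (helper71, `LLfRef.lineLemma`): the pure-field line lemma;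
* GLUE (`Glue`): `th Θ`, T1–T4, J1 (line lemma in `th`-form), J3 (back to `KOne`);
* NORM + AS-core (helper4 `Norm.exists_ringHom_of_llat`, on helper75's `PartB`).
-/

set_option autoImplicit false
open Crest.NumberTheoryR.MilnorK
open Crest.Agent.Helper31.S0010

namespace Crest.Agent.Helper22.S0010

section chain

variable {p : ℕ} [Fact p.Prime] {K : Type*} {L : Type*} [Field K] [Field L] [CharP K p]
  [CharP L p]

omit [Field K] [CharP K p] in
/-- helper71's line lemma, in the shape `LineLemmaAt` used by `J1`. -/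
theorem lineLemmaAt_of_infinite (ι : Type*) [Infinite ι] (c₀ c₁ : ι) (hc : c₁ ≠ c₀) :
    LineLemmaAt p L ι c₀ := by
  intro x y hxy φ γ h hh _ _ hφ hφ' hγ hγ' hJ hφi hγi
  obtain ⟨m, hm0, hmp, P, Q, lam, hP, hP', hQ, hQ', hl0, -, hlam, hinj, h1, h2, h3, h4⟩ :=
    Crest.Agent.Helper71.S0010.lineLemma c₀ c₁ hc hxy φ γ h hh hφ hφ' hγ hγ' hJ hφi hγi
  exact ⟨m, hm0, hmp, P, Q, lam, hP, hP', hQ, hQ', hl0, hinj, hlam, h1, h2, h3, h4⟩

/-- `th Θ` is a lift in the sense of helper75's `IsLift`. -/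
theorem isLift_th (Θ : KOne K p ≃ₗ[ZMod p] KOne L p) :
    Crest.Agent.Helper75.S0010.IsLift p (th Θ) where
  ne_zero := fun _ hu => th_ne_zero Θ hu
  mul := fun _ _ hu hv => rel_th_mul Θ hu hv
  rel_iff := fun _ _ hu hv => rel_th_iff Θ hu hv
  surj := fun _ hy => exists_rel_th Θ hy

/-- The line lemma for `th Θ` in helper75's shape `LLat`, with a pair-dependent exponent. -/
theorem llat_th (k : Subfield K) [IsAlgClosed k] {Θ : KOne K p ≃ₗ[ZMod p] KOne L p}
    (hΘ : IsCompatible Θ) (f g : K) (hf : f ≠ 0) (hg : g ≠ 0)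
    (hfg : Crest.Agent.Helper75.S0010.PIndep p (th Θ f) (th Θ g)) :
    ∃ m, 0 < m ∧ m < p ∧ Crest.Agent.Helper75.S0010.LLat p (th Θ) m f g := by
  have : Infinite ↥(pPow (L := K) p) :=
    (Crest.Agent.Helper91.S0010.pPow_infinite (p := p) k).to_subtype
  have hLL : LineLemmaAt p L (↥(pPow (L := K) p)) 0 :=
    lineLemmaAt_of_infinite (p := p) (L := L) (↥(pPow (L := K) p)) 0 1 one_ne_zero
  obtain ⟨m, hm0, hmp, P, Q, lam, -, -, -, -, hl0, hl1, hlam, -, hrel⟩ :=
    J1 hΘ hLL hf hg hfg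
  exact ⟨m, hm0, hmp, P, Q, lam, hlam, hl0, hl1, hrel⟩

/-- **(E)**: the existence theorem. -/
theorem E (k : Subfield K) (l : Subfield L) [IsAlgClosed k] [IsAlgClosed l]
    (hK : ∃ s : Finset K, Subfield.closure ((k : Set K) ∪ (s : Set K)) = ⊤)
    (hL : ∃ s : Finset L, Subfield.closure ((l : Set L) ∪ (s : Set L)) = ⊤)
    (hK2 : 2 ≤ Algebra.trdeg k K) (hL2 : 2 ≤ Algebra.trdeg l L)
    (Θ : KOne K p ≃ₗ[ZMod p] KOne L p) (hΘ : IsCompatible Θ) :
    ∃ α : K →+* L, ∃ c : ZMod p, c ≠ 0 ∧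
      ∀ u : Kˣ, Θ (cls K p u) = c • cls L p (Units.map α.toMonoidHom u) := by
  have hbig : Crest.Agent.Helper75.S0010.Big L p := fun x =>
    Crest.Agent.Helper91.S0010.exists_not_mem_pAdj (p := p) l hL hL2 x
  obtain ⟨a, m, hm0, hmp, ha⟩ :=
    Crest.Agent.Helper4.S0010.exists_ringHom_of_llat (isLift_th Θ) hbig
      (fun f g hf hg hfg => llat_th k hΘ f g hf hg hfg)
  exact J3 Θ a m hm0 hmp ha

end chain

end Crest.Agent.Helper22.S0010
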