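import Crest.Agent.Helper22.S0010.KOne
import Crest.Agent.Helper31.S0010.Deriv

/-!
# Row 9 / S0010, work package GLUE

* `th Θ : K → L`: a representative map of `Θ` (`th Θ 0 = 0`, `[th Θ u] = Θ [u]` for `u ≠ 0`),
  with the properties T1–T4;
* J1: the line lemma in `th`-form, from a pure-field line lemma taken as a hypothesis;
* J3: from a ring homomorphism `a` with `th Θ u ~ (a u)^m` to `Θ [u] = m • [a u]`.
-/

set_option autoImplicit false
open Crest.NumberTheoryR.MilnorK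
open Crest.Agent.Helper31.S0010
open TensorProduct

namespace Crest.Agent.Helper22.S0010

section rel

variable (p : ℕ) [Fact p.Prime] {L : Type*} [Field L] [CharP L p]

/-- `a` and `b` differ by a non-zero `p`-th power. -/
def Rel (a b : L) : Prop := ∃ e ∈ pPow (L := L) p, e ≠ 0 ∧ a = e * b

theorem kc_eq_zero_iff_mem_pPow {a : L} (ha : a ≠ 0) :
    kc p a = 0 ↔ a ∈ pPow (L := L) p := by
  rw [kc_eq_zero_iff p ha, mem_pPow]

theorem rel_iff_kc {a b : L} (ha : a ≠ 0) (hb : b ≠ 0) : Rel p a b ↔ kc p a = kc p b := by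
  rw [kc_eq_kc_iff p ha hb]
  constructor
  · rintro ⟨e, he, he0, rfl⟩
    obtain ⟨w, rfl⟩ := (mem_pPow p).1 he
    exact ⟨w, fun h => he0 (by rw [h, zero_pow (Fact.out : p.Prime).ne_zero]), rfl⟩
  · rintro ⟨w, hw, rfl⟩
    exact ⟨w ^ p, pow_mem_pPow p w, pow_ne_zero p hw, rfl⟩

theorem Rel.refl (a : L) : Rel p a a := ⟨1, one_mem _, one_ne_zero, (one_mul a).symm⟩

theorem Rel.symm {a b : L} (h : Rel p a b) : Rel p b a := by
  obtain ⟨e, he, he0, rfl⟩ := h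
  exact ⟨e⁻¹, inv_mem he, inv_ne_zero he0, by rw [inv_mul_cancel_left₀ he0]⟩

theorem Rel.trans {a b c : L} (h : Rel p a b) (h' : Rel p b c) : Rel p a c := by
  obtain ⟨e, he, he0, rfl⟩ := h
  obtain ⟨e', he', he0', rfl⟩ := h'
  exact ⟨e * e', mul_mem he he', mul_ne_zero he0 he0', by rw [mul_assoc]⟩

theorem rel_of_div_mem {a b : L} (ha : a ≠ 0) (hb : b ≠ 0) (h : a / b ∈ pPow (L := L) p) :
    Rel p a b :=
  ⟨a / b, h, div_ne_zero ha hb, by rw [div_mul_cancel₀ _ hb]⟩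

theorem Rel.div_mem {a b : L} (hb : b ≠ 0) (h : Rel p a b) : a / b ∈ pPow (L := L) p := by
  obtain ⟨e, he, -, rfl⟩ := h
  rwa [mul_div_cancel_right₀ _ hb]

end rel

section th

variable {p : ℕ} [Fact p.Prime] {K L : Type*} [Field K] [Field L]

/-- A representative map of `Θ`: `th Θ 0 = 0` and `th Θ u` is a chosen non-zero element of `L`
whose class is `Θ [u]`. -/
noncomputable def th (Θ : KOne K p ≃ₗ[ZMod p] KOne L p) (u : K) : L :=
  @ite _ (u = 0) (Classical.propDecidable _) 0 (Classical.choose (exists_kc_eq p (Θ (kc p u))))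

theorem th_zero (Θ : KOne K p ≃ₗ[ZMod p] KOne L p) : th Θ 0 = 0 := by simp [th]

/-- (T1) -/
theorem th_ne_zero (Θ : KOne K p ≃ₗ[ZMod p] KOne L p) {u : K} (hu : u ≠ 0) : th Θ u ≠ 0 := by
  have := (Classical.choose_spec (exists_kc_eq p (Θ (kc p u)))).1
  simpa [th, hu] using this

theorem kc_th (Θ : KOne K p ≃ₗ[ZMod p] KOne L p) {u : K} (hu : u ≠ 0) :
    kc p (th Θ u) = Θ (kc p u) := by
  have := (Classical.choose_spec (exists_kc_eq p (Θ (kc p u)))).2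
  simpa [th, hu] using this

theorem cls_th (Θ : KOne K p ≃ₗ[ZMod p] KOne L p) (u : Kˣ) :
    Θ (cls K p u) = cls L p (Units.mk0 (th Θ (u : K)) (th_ne_zero Θ u.ne_zero)) := by
  rw [← kc_of_ne p (th_ne_zero Θ u.ne_zero), kc_th Θ u.ne_zero, kc_unit]

variable [CharP K p] [CharP L p]

omit [CharP K p] in
/-- (T2) -/
theorem rel_th_mul (Θ : KOne K p ≃ₗ[ZMod p] KOne L p) {u v : K} (hu : u ≠ 0) (hv : v ≠ 0) :
    Rel p (th Θ (u * v)) (th Θ u * th Θ v) := by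
  rw [rel_iff_kc p (th_ne_zero Θ (mul_ne_zero hu hv))
    (mul_ne_zero (th_ne_zero Θ hu) (th_ne_zero Θ hv)),
    kc_mul p (th_ne_zero Θ hu) (th_ne_zero Θ hv), kc_th Θ hu, kc_th Θ hv,
    kc_th Θ (mul_ne_zero hu hv), kc_mul p hu hv, map_add]

/-- (T3), first half -/
theorem th_mem_pPow_iff (Θ : KOne K p ≃ₗ[ZMod p] KOne L p) {u : K} (hu : u ≠ 0) :
    th Θ u ∈ pPow (L := L) p ↔ u ∈ pPow (L := K) p := by
  rw [← kc_eq_zero_iff_mem_pPow p (th_ne_zero Θ hu), ← kc_eq_zero_iff_mem_pPow p hu, kc_th Θ hu]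
  exact LinearEquiv.map_eq_zero_iff Θ

/-- (T3), second half -/
theorem rel_th_iff (Θ : KOne K p ≃ₗ[ZMod p] KOne L p) {u v : K} (hu : u ≠ 0) (hv : v ≠ 0) :
    Rel p (th Θ u) (th Θ v) ↔ Rel p u v := by
  rw [rel_iff_kc p (th_ne_zero Θ hu) (th_ne_zero Θ hv), rel_iff_kc p hu hv, kc_th Θ hu,
    kc_th Θ hv]
  exact Θ.injective.eq_iff

omit [CharP K p] in
/-- (T4) -/
theorem exists_rel_th (Θ : KOne K p ≃ₗ[ZMod p] KOne L p) {y : L} (hy : y ≠ 0) :
    ∃ g : K, g ≠ 0 ∧ Rel p (th Θ g) y := by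
  obtain ⟨g, hg, hgy⟩ := exists_kc_eq p (Θ.symm (kc p y))
  refine ⟨g, hg, ?_⟩
  rw [rel_iff_kc p (th_ne_zero Θ hg) hy, kc_th Θ hg, hgy, LinearEquiv.apply_symm_apply]

end th

section J3

variable {p : ℕ} [Fact p.Prime] {K L : Type*} [Field K] [Field L] [CharP L p]

/-- (J3) From a ring homomorphism `a` with `th Θ u ~ (a u)^m` to `Θ [u] = m • [a u]`. -/
theorem J3 (Θ : KOne K p ≃ₗ[ZMod p] KOne L p) (a : K →+* L) (m : ℕ) (hm0 : 0 < m) (hmp : m < p)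
    (h : ∀ u : K, u ≠ 0 → Rel p (th Θ u) (a u ^ m)) :
    ∃ a : K →+* L, ∃ c : ZMod p, c ≠ 0 ∧
      ∀ u : Kˣ, Θ (cls K p u) = c • cls L p (Units.map a.toMonoidHom u) := by
  refine ⟨a, (m : ZMod p), ?_, fun u => ?_⟩
  · rw [Ne, ZMod.natCast_eq_zero_iff]
    intro hd
    exact absurd (Nat.le_of_dvd hm0 hd) (not_le.2 hmp)
  · have hau : a (u : K) ≠ 0 := (map_ne_zero a).2 u.ne_zero
    have h1 := h u u.ne_zero
    rw [rel_iff_kc p (th_ne_zero Θ u.ne_zero) (pow_ne_zero m hau), kc_th Θ u.ne_zero, kc_unit,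
      kc_pow p hau] at h1
    rw [h1, Nat.cast_smul_eq_nsmul]
    congr 1
    rw [← kc_unit]
    rfl

end J3

section J1

variable {p : ℕ} [Fact p.Prime] {K L : Type*} [Field K] [Field L] [CharP K p] [CharP L p]

omit [CharP K p] in
/-- (I) in `kc`-form: `[u] ⊗ [v] ∈ S_L` and `u ∉ L^p` imply `v ∈ L^p(u)`. -/
theorem mem_pAdj_of_tmul_mem_steinberg {u v : L} (hu : u ≠ 0) (hv : v ≠ 0)
    (h : kc p u ⊗ₜ[ZMod p] kc p v ∈ steinberg L p) (hup : u ∉ pPow (L := L) p) :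
    v ∈ pAdj p u := by
  by_contra hvp
  obtain ⟨D₁, D₂, h1x, h1y, h2x, h2y⟩ := exists_derivation_pair p (x := u) (y := v) ⟨hup, hvp⟩
  refine not_mem_steinberg_of_derivation p D₁ D₂ hu hv ?_ h
  rw [h1x, h1y, h2x, h2y]
  simp

/-- (S1) = (St1)+(Tr)+(I): `th Θ (f + c) ∈ L^p(th Θ f)` for `f ∉ K^p`, `c ∈ K^p`. -/
theorem th_add_mem_pAdj {Θ : KOne K p ≃ₗ[ZMod p] KOne L p} (hΘ : IsCompatible Θ) {f c : K}
    (hf : f ∉ pPow (L := K) p) (hc : c ∈ pPow (L := K) p) :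
    th Θ (f + c) ∈ pAdj p (th Θ f) := by
  have hf0 : f ≠ 0 := fun h => hf (h ▸ zero_mem _)
  by_cases hc0 : c = 0
  · rw [hc0, add_zero]; exact self_mem_pAdj p _
  obtain ⟨b, rfl⟩ := (mem_pPow p).1 hc
  have hb : b ≠ 0 := by
    rintro rfl
    exact hc0 (zero_pow (Fact.out : p.Prime).ne_zero)
  have hfc : f + b ^ p ≠ 0 := fun h =>
    hf (by rw [eq_neg_of_add_eq_zero_left h]; exact neg_mem hc)
  have h1 := isCompatible_tmul_mem hΘ (steinberg_add_pow p hf0 hb hfc)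
  rw [← kc_th Θ hf0, ← kc_th Θ hfc] at h1
  exact mem_pAdj_of_tmul_mem_steinberg (th_ne_zero Θ hf0) (th_ne_zero Θ hfc) h1
    ((th_mem_pPow_iff Θ hf0).not.2 hf)

/-- (S2) = (St2)+(Tr)+(I). -/
theorem th_div_mem_pAdj {Θ : KOne K p ≃ₗ[ZMod p] KOne L p} (hΘ : IsCompatible Θ) {a b : K}
    (ha : a ≠ 0) (hb : b ≠ 0) (hab : a + b ≠ 0)
    (hne : th Θ b / th Θ a ∉ pPow (L := L) p) :
    th Θ (a + b) / th Θ a ∈ pAdj p (th Θ b / th Θ a) := by
  have h1 := isCompatible_tmul_mem hΘ (steinberg_ratio' p ha hb hab)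
  rw [map_sub, map_sub, ← kc_th Θ ha, ← kc_th Θ hb, ← kc_th Θ hab,
    ← kc_div p (th_ne_zero Θ hb) (th_ne_zero Θ ha),
    ← kc_div p (th_ne_zero Θ hab) (th_ne_zero Θ ha)] at h1
  exact mem_pAdj_of_tmul_mem_steinberg (div_ne_zero (th_ne_zero Θ hb) (th_ne_zero Θ ha))
    (div_ne_zero (th_ne_zero Θ hab) (th_ne_zero Θ ha)) h1 hne

end J1

section J1main

/-- The pure-field line lemma, as a hypothesis, for the index type `ι` with base point `c₀`
(the weakest of the shapes announced by the owners of the line lemma). -/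
def LineLemmaAt (p : ℕ) [Fact p.Prime] (L : Type*) [Field L] [CharP L p] (ι : Type*)
    (c₀ : ι) : Prop :=
  ∀ (x y : L), PIndep p x y → ∀ (φ γ : ι → L) (h : L), h ≠ 0 → φ c₀ = x → γ c₀ = y →
    (∀ c, φ c ∈ pAdj p x) → (∀ c, φ c ∉ pPow (L := L) p) →
    (∀ c, γ c ∈ pAdj p y) → (∀ c, γ c ∉ pPow (L := L) p) →
    (∀ c, h / φ c ∈ pAdj p (γ c / φ c)) →
    (∀ c c', φ c / φ c' ∈ pPow (L := L) p → c = c') →
    (∀ c c', γ c / γ c' ∈ pPow (L := L) p → c = c') →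
    ∃ m : ℕ, 0 < m ∧ m < p ∧ ∃ (P Q : L) (lam : ι → L),
      P ∈ pAdj p x ∧ P ∉ pPow (L := L) p ∧ Q ∈ pAdj p y ∧ Q ∉ pPow (L := L) p ∧
      lam c₀ = 0 ∧ Function.Injective lam ∧ (∀ c, lam c ∈ pPow (L := L) p) ∧
      (∀ c, P + lam c ≠ 0 ∧ φ c / (P + lam c) ^ m ∈ pPow (L := L) p) ∧
      (∀ c, Q - lam c ≠ 0 ∧ γ c / (Q - lam c) ^ m ∈ pPow (L := L) p) ∧
      P + Q ≠ 0 ∧ h / (P + Q) ^ m ∈ pPow (L := L) p

variable {p : ℕ} [Fact p.Prime] {K L : Type*} [Field K] [Field L] [CharP K p] [CharP L p]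

omit [CharP K p] in
/-- rescaling inside a power -/
theorem rel_pow_scale {a B e : L} {m : ℕ} (ha : a ≠ 0) (hB : B ≠ 0)
    (h : a / B ^ m ∈ pPow (L := L) p) (he : e ∈ pPow (L := L) p) (he0 : e ≠ 0) :
    Rel p a ((e * B) ^ m) := by
  refine ⟨a / B ^ m / e ^ m, div_mem h (pow_mem he m), ?_, ?_⟩
  · exact div_ne_zero (div_ne_zero ha (pow_ne_zero m hB)) (pow_ne_zero m he0)
  · have h1 : B ^ m ≠ 0 := pow_ne_zero m hB
    have h2 : e ^ m ≠ 0 := pow_ne_zero m he0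
    rw [mul_pow]
    field_simp

/-- an element outside `K^p` stays outside after adding an element of `K^p` -/
theorem add_notMem_pPow {f c : K} (hf : f ∉ pPow (L := K) p) (hc : c ∈ pPow (L := K) p) :
    f + c ∉ pPow (L := K) p := fun h => hf (by simpa using sub_mem h hc)

/-- `f + c ~ f + c'` with `f ∉ K^p`, `c, c' ∈ K^p` forces `c = c'`. -/
theorem eq_of_rel_add {f c c' : K} (hf : f ∉ pPow (L := K) p) (hc : c ∈ pPow (L := K) p)
    (hc' : c' ∈ pPow (L := K) p) (h : Rel p (f + c) (f + c')) : c = c' := by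
  obtain ⟨e, he, -, heq⟩ := h
  by_cases h1 : e = 1
  · rw [h1, one_mul] at heq
    exact add_left_cancel heq
  · exfalso
    apply hf
    have h2 : (1 - e) ≠ 0 := sub_ne_zero.2 (Ne.symm h1)
    have h3 : f = (e * c' - c) / (1 - e) := by
      rw [eq_div_iff h2]
      linear_combination heq
    rw [h3]
    exact div_mem (sub_mem (mul_mem he hc') hc) (sub_mem (one_mem _) he)

/-- **(J1)** The line lemma in `th`-form. -/
theorem J1 {Θ : KOne K p ≃ₗ[ZMod p] KOne L p} (hΘ : IsCompatible Θ)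
    (hLL : LineLemmaAt p L (↥(pPow (L := K) p)) 0)
    {f g : K} (hf : f ≠ 0) (hg : g ≠ 0) (hfg : PIndep p (th Θ f) (th Θ g)) :
    ∃ m : ℕ, 0 < m ∧ m < p ∧ ∃ (P Q : L) (lam : K → L),
      P ∈ pAdj p (th Θ f) ∧ P ∉ pPow (L := L) p ∧ Q ∈ pAdj p (th Θ g) ∧ Q ∉ pPow (L := L) p ∧
      lam 0 = 0 ∧ lam 1 = 1 ∧ (∀ c ∈ pPow (L := K) p, lam c ∈ pPow (L := L) p) ∧
      Set.InjOn lam (pPow (L := K) p : Set K) ∧
      ∀ c ∈ pPow (L := K) p, Rel p (th Θ (f + c)) ((P + lam c) ^ m) ∧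
        Rel p (th Θ (g - c)) ((Q - lam c) ^ m) ∧ Rel p (th Θ (f + g)) ((P + Q) ^ m) := by
  classical
  -- basic facts
  have hfK : f ∉ pPow (L := K) p := (th_mem_pPow_iff Θ hf).not.1 hfg.1
  have hgL : th Θ g ∉ pPow (L := L) p := fun h => hfg.2 (pPow_le_pAdj p _ h)
  have hgK : g ∉ pPow (L := K) p := (th_mem_pPow_iff Θ hg).not.1 hgL
  have hgf : PIndep p (th Θ g) (th Θ f) := PIndep.symm p hfg
  have hne0 : ∀ {u : K}, u ∉ pPow (L := K) p → u ≠ 0 := fun hu h => hu (h ▸ zero_mem _)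
  have hfg0 : f + g ≠ 0 := by
    intro h0
    have hgeq : g = -1 * f := by linear_combination h0
    have hrel : Rel p g f := ⟨-1, neg_mem (one_mem _), neg_ne_zero.2 one_ne_zero, hgeq⟩
    obtain ⟨e, he, -, heq⟩ := (rel_th_iff Θ hg hf).2 hrel
    exact hfg.2 (heq ▸ mul_mem (pPow_le_pAdj p _ he) (self_mem_pAdj p _))
  -- the data for the line lemma
  let ι := ↥(pPow (L := K) p)
  let φ : ι → L := fun c => th Θ (f + (c : K))
  let γ : ι → L := fun c => th Θ (g - (c : K))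
  have hfc : ∀ c : ι, f + (c : K) ∉ pPow (L := K) p := fun c => add_notMem_pPow hfK c.2
  have hgc : ∀ c : ι, g - (c : K) ∉ pPow (L := K) p := fun c => by
    rw [sub_eq_add_neg]; exact add_notMem_pPow hgK (neg_mem c.2)
  have hφ0 : φ 0 = th Θ f := by simp [φ]
  have hγ0 : γ 0 = th Θ g := by simp [γ]
  have hφ : ∀ c, φ c ∈ pAdj p (th Θ f) := fun c => th_add_mem_pAdj hΘ hfK c.2
  have hφ' : ∀ c, φ c ∉ pPow (L := L) p := fun c =>
    (th_mem_pPow_iff Θ (hne0 (hfc c))).not.2 (hfc c)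
  have hγ : ∀ c, γ c ∈ pAdj p (th Θ g) := fun c => by
    have := th_add_mem_pAdj hΘ hgK (neg_mem c.2)
    rwa [← sub_eq_add_neg] at this
  have hγ' : ∀ c, γ c ∉ pPow (L := L) p := fun c =>
    (th_mem_pPow_iff Θ (hne0 (hgc c))).not.2 (hgc c)
  have hJ : ∀ c, th Θ (f + g) / φ c ∈ pAdj p (γ c / φ c) := by
    intro c
    have hne : th Θ (g - (c : K)) / th Θ (f + (c : K)) ∉ pPow (L := L) p := by
      intro he
      -- then γ c ∈ L^p(th f) ∩ L^p(th g), which is L^p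
      have h1 : γ c ∈ pAdj p (th Θ f) := by
        have : γ c = th Θ (g - (c : K)) / th Θ (f + (c : K)) * φ c := by
          simp only [γ, φ]
          rw [div_mul_cancel₀ _ (th_ne_zero Θ (hne0 (hfc c)))]
        rw [this]
        exact mul_mem (pPow_le_pAdj p _ he) (hφ c)
      have h2 : th Θ g ∈ adj (pPow (L := L) p) (γ c) :=
        exchange p (pPow p) (pow_mem_pPow p) (hγ c) (hγ' c)
      exact hfg.2 (adj_le (pPow_le_pAdj p _) h1 h2)
    have key := th_div_mem_pAdj hΘ (hne0 (hfc c)) (hne0 (hgc c))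
      (by rw [show f + (c : K) + (g - (c : K)) = f + g by ring]; exact hfg0) hne
    rwa [show f + (c : K) + (g - (c : K)) = f + g by ring] at key
  have hφi : ∀ c c', φ c / φ c' ∈ pPow (L := L) p → c = c' := by
    intro c c' h
    have h1 := rel_of_div_mem p (th_ne_zero Θ (hne0 (hfc c))) (th_ne_zero Θ (hne0 (hfc c'))) h
    have h2 := (rel_th_iff Θ (hne0 (hfc c)) (hne0 (hfc c'))).1 h1
    exact Subtype.ext (eq_of_rel_add hfK c.2 c'.2 h2)
  have hγi : ∀ c c', γ c / γ c' ∈ pPow (L := L) p → c = c' := by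
    intro c c' h
    have h1 := rel_of_div_mem p (th_ne_zero Θ (hne0 (hgc c))) (th_ne_zero Θ (hne0 (hgc c'))) h
    have h2 := (rel_th_iff Θ (hne0 (hgc c)) (hne0 (hgc c'))).1 h1
    rw [sub_eq_add_neg, sub_eq_add_neg] at h2
    have := eq_of_rel_add hgK (neg_mem c.2) (neg_mem c'.2) h2
    exact Subtype.ext (neg_injective this)
  obtain ⟨m, hm0, hmp, P, Q, lam', hP, hP', hQ, hQ', hl0, hlinj, hlmem, hφP, hγQ, hPQ0, hhPQ⟩ :=
    hLL (th Θ f) (th Θ g) hfg φ γ (th Θ (f + g)) (th_ne_zero Θ hfg0) hφ0 hγ0 hφ hφ' hγ hγ' hJ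
      hφi hγi
  -- normalisation `lam 1 = 1`
  let one' : ι := ⟨1, one_mem _⟩
  have hone : lam' one' ≠ 0 := by
    intro h
    have := hlinj (h.trans hl0.symm)
    exact one_ne_zero (congrArg Subtype.val this)
  set e : L := (lam' one')⁻¹ with he_def
  have he : e ∈ pPow (L := L) p := inv_mem (hlmem one')
  have he0 : e ≠ 0 := inv_ne_zero hone
  let lam : K → L := fun c => if hc : c ∈ pPow (L := K) p then e * lam' ⟨c, hc⟩ else 0
  have hlam : ∀ (c : K) (hc : c ∈ pPow (L := K) p), lam c = e * lam' ⟨c, hc⟩ := fun c hc => by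
    simp only [lam, dif_pos hc]
  refine ⟨m, hm0, hmp, e * P, e * Q, lam, mul_mem (pPow_le_pAdj p _ he) hP, ?_,
    mul_mem (pPow_le_pAdj p _ he) hQ, ?_, ?_, ?_, ?_, ?_, ?_⟩
  · intro h
    apply hP'
    have : P = e⁻¹ * (e * P) := by rw [inv_mul_cancel_left₀ he0]
    rw [this]
    exact mul_mem (inv_mem he) h
  · intro h
    apply hQ'
    have : Q = e⁻¹ * (e * Q) := by rw [inv_mul_cancel_left₀ he0]
    rw [this]
    exact mul_mem (inv_mem he) h
  · rw [hlam 0 (zero_mem _)]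
    have : (⟨0, zero_mem _⟩ : ι) = 0 := rfl
    rw [this, hl0, mul_zero]
  · rw [hlam 1 (one_mem _)]
    exact inv_mul_cancel₀ hone
  · intro c hc
    rw [hlam c hc]
    exact mul_mem he (hlmem _)
  · intro c hc c' hc' h
    rw [hlam c hc, hlam c' hc'] at h
    have := hlinj (mul_left_cancel₀ he0 h)
    exact congrArg Subtype.val this
  · intro c hc
    rw [hlam c hc]
    refine ⟨?_, ?_, ?_⟩
    · rw [← mul_add]
      exact rel_pow_scale (th_ne_zero Θ (hne0 (hfc ⟨c, hc⟩))) (hφP ⟨c, hc⟩).1 (hφP ⟨c, hc⟩).2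
        he he0
    · rw [← mul_sub]
      exact rel_pow_scale (th_ne_zero Θ (hne0 (hgc ⟨c, hc⟩))) (hγQ ⟨c, hc⟩).1 (hγQ ⟨c, hc⟩).2
        he he0
    · rw [← mul_add]
      exact rel_pow_scale (th_ne_zero Θ hfg0) hPQ0 hhPQ he he0

end J1main

end Crest.Agent.Helper22.S0010
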