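import Mathlib
import Crest.Prelude.Def_MilnorK

/-!
# Row 9 / S0010, work package WP-K: interface for `KOne`, `cls`, `steinberg`, `IsCompatible`

Everything here is stated with the total class map `kc p a` (`a : K`; the class of `a` when
`a ≠ 0`, and `0` when `a = 0`) next to the unit-based `cls K p u` of the Prelude.
-/

set_option autoImplicit false
open Crest.NumberTheoryR.MilnorK
open TensorProduct

namespace Crest.Agent.Helper22.S0010

section clsBasics

variable {K : Type*} [Field K] (p : ℕ)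

theorem cls_mul (u v : Kˣ) : cls K p (u * v) = cls K p u + cls K p v := rfl

theorem cls_one : cls K p (1 : Kˣ) = 0 := rfl

theorem cls_inv (u : Kˣ) : cls K p u⁻¹ = - cls K p u := rfl

theorem cls_div (u v : Kˣ) : cls K p (u / v) = cls K p u - cls K p v := by
  rw [div_eq_mul_inv, cls_mul, cls_inv, sub_eq_add_neg]

theorem cls_pow (u : Kˣ) (n : ℕ) : cls K p (u ^ n) = n • cls K p u := rfl

theorem cls_surjective : Function.Surjective (cls K p) := by
  intro x
  induction x using QuotientAddGroup.induction_on with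
  | H a => exact ⟨Additive.toMul a, rfl⟩

theorem cls_eq_zero_iff (u : Kˣ) : cls K p u = 0 ↔ ∃ w : Kˣ, w ^ p = u := by
  unfold cls
  rw [QuotientAddGroup.eq_zero_iff]
  unfold pMultiples
  rw [AddMonoidHom.mem_range]
  constructor
  · rintro ⟨x, hx⟩
    exact ⟨Additive.toMul x, by simpa using congrArg Additive.toMul hx⟩
  · rintro ⟨w, hw⟩
    exact ⟨Additive.ofMul w, by simp [← hw]⟩

theorem cls_pow_self (u : Kˣ) : cls K p (u ^ p) = 0 :=
  (cls_eq_zero_iff p _).2 ⟨u, rfl⟩

theorem nsmul_self_kone (x : KOne K p) : p • x = 0 := by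
  obtain ⟨u, rfl⟩ := cls_surjective p x
  rw [← cls_pow, cls_pow_self]

theorem cls_eq_cls_iff (u v : Kˣ) : cls K p u = cls K p v ↔ ∃ w : Kˣ, u = w ^ p * v := by
  rw [← sub_eq_zero, ← cls_div, cls_eq_zero_iff]
  constructor
  · rintro ⟨w, hw⟩
    exact ⟨w, by rw [hw, div_mul_cancel]⟩
  · rintro ⟨w, hw⟩
    exact ⟨w, by rw [hw, mul_div_cancel_right]⟩

/-- In a `ZMod p`-module the scalar action is the action of its value. -/
theorem zmod_smul_eq_nsmul [NeZero p] {M : Type*} [AddCommGroup M] [Module (ZMod p) M]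
    (n : ZMod p) (x : M) : n • x = n.val • x := by
  conv_lhs => rw [← ZMod.natCast_zmod_val n]
  exact Nat.cast_smul_eq_nsmul (ZMod p) n.val x

theorem zmod_smul_cls [NeZero p] (n : ZMod p) (u : Kˣ) :
    n • cls K p u = cls K p (u ^ n.val) := by
  rw [zmod_smul_eq_nsmul, cls_pow]

theorem natCast_smul_cls (n : ℕ) (u : Kˣ) :
    (n : ZMod p) • cls K p u = cls K p (u ^ n) := by
  rw [Nat.cast_smul_eq_nsmul, cls_pow]

end clsBasics

section kc

variable {K : Type*} [Field K] (p : ℕ)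

/-- The class of a field element: `cls` of the unit for `a ≠ 0`, and `0` for `a = 0`. -/
noncomputable def kc (a : K) : KOne K p :=
  @dite _ (a = 0) (Classical.propDecidable _) (fun _ => 0) (fun h => cls K p (Units.mk0 a h))

theorem kc_zero : kc p (0 : K) = 0 := by simp [kc]

theorem kc_of_ne {a : K} (h : a ≠ 0) : kc p a = cls K p (Units.mk0 a h) := by simp [kc, h]

theorem kc_unit (u : Kˣ) : kc p (u : K) = cls K p u := by
  rw [kc_of_ne p u.ne_zero]; congr 1; ext; rfl

theorem kc_one : kc p (1 : K) = 0 := by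
  have := kc_unit p (1 : Kˣ)
  simpa [cls_one] using this

theorem kc_mul {a b : K} (ha : a ≠ 0) (hb : b ≠ 0) : kc p (a * b) = kc p a + kc p b := by
  rw [kc_of_ne p ha, kc_of_ne p hb, kc_of_ne p (mul_ne_zero ha hb), ← cls_mul]
  congr 1; ext; rfl

theorem kc_inv (a : K) : kc p a⁻¹ = - kc p a := by
  by_cases ha : a = 0
  · simp [ha, kc_zero]
  · rw [kc_of_ne p ha, kc_of_ne p (inv_ne_zero ha), ← cls_inv]
    congr 1; ext; simp

theorem kc_div {a b : K} (ha : a ≠ 0) (hb : b ≠ 0) : kc p (a / b) = kc p a - kc p b := by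
  rw [div_eq_mul_inv, kc_mul p ha (inv_ne_zero hb), kc_inv, sub_eq_add_neg]

theorem kc_pow {a : K} (ha : a ≠ 0) (n : ℕ) : kc p (a ^ n) = n • kc p a := by
  rw [kc_of_ne p ha, kc_of_ne p (pow_ne_zero n ha), ← cls_pow]
  congr 1; ext; simp

theorem kc_pow_char (a : K) : kc p (a ^ p) = 0 := by
  by_cases ha : a = 0
  · by_cases hp : p = 0
    · simp [hp, kc_one]
    · simp [ha, hp, kc_zero]
  · rw [kc_pow p ha, nsmul_self_kone]

theorem kc_mul_pow {a : K} (ha : a ≠ 0) {w : K} (hw : w ≠ 0) : kc p (w ^ p * a) = kc p a := by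
  rw [kc_mul p (pow_ne_zero p hw) ha, kc_pow_char]
  exact zero_add (kc p a)

theorem kc_mul_pow' {a : K} (ha : a ≠ 0) {w : K} (hw : w ≠ 0) : kc p (a * w ^ p) = kc p a := by
  rw [mul_comm, kc_mul_pow p ha hw]

theorem exists_kc_eq (x : KOne K p) : ∃ a : K, a ≠ 0 ∧ kc p a = x := by
  obtain ⟨u, rfl⟩ := cls_surjective p x
  exact ⟨u, u.ne_zero, kc_unit p u⟩

theorem kc_eq_zero_iff [NeZero p] {a : K} (ha : a ≠ 0) : kc p a = 0 ↔ ∃ w : K, w ^ p = a := by
  rw [kc_of_ne p ha, cls_eq_zero_iff]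
  constructor
  · rintro ⟨w, hw⟩
    exact ⟨w, by simpa using congrArg Units.val hw⟩
  · rintro ⟨w, hw⟩
    have hw0 : w ≠ 0 := by
      rintro rfl
      rw [zero_pow (NeZero.ne p)] at hw
      exact ha hw.symm
    exact ⟨Units.mk0 w hw0, by ext; simpa using hw⟩

theorem kc_eq_kc_iff [NeZero p] {a b : K} (ha : a ≠ 0) (hb : b ≠ 0) :
    kc p a = kc p b ↔ ∃ w : K, w ≠ 0 ∧ a = w ^ p * b := by
  rw [← sub_eq_zero, ← kc_div p ha hb, kc_eq_zero_iff p (div_ne_zero ha hb)]
  constructor
  · rintro ⟨w, hw⟩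
    have hw0 : w ≠ 0 := by
      rintro rfl
      rw [zero_pow (NeZero.ne p)] at hw
      exact div_ne_zero ha hb hw.symm
    exact ⟨w, hw0, by rw [hw, div_mul_cancel₀ _ hb]⟩
  · rintro ⟨w, -, hw⟩
    exact ⟨w, by rw [hw, mul_div_cancel_right₀ _ hb]⟩

theorem zmod_smul_kc [NeZero p] (n : ZMod p) {a : K} (ha : a ≠ 0) :
    n • kc p a = kc p (a ^ n.val) := by
  rw [zmod_smul_eq_nsmul, kc_pow p ha]

theorem natCast_smul_kc (n : ℕ) {a : K} (ha : a ≠ 0) :
    (n : ZMod p) • kc p a = kc p (a ^ n) := by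
  rw [Nat.cast_smul_eq_nsmul, kc_pow p ha]

theorem kc_neg_one [CharP K p] [Fact p.Prime] : kc p (-1 : K) = 0 := by
  have h : (-1 : K) ^ p = -1 := neg_one_pow_char K p
  rw [← h, kc_pow_char]

theorem kc_neg [CharP K p] [Fact p.Prime] (a : K) : kc p (-a) = kc p a := by
  by_cases ha : a = 0
  · simp [ha]
  · rw [← neg_one_mul, kc_mul p (neg_ne_zero.2 one_ne_zero) ha, kc_neg_one]
    exact zero_add (kc p a)

end kc

section steinbergGens

variable {K : Type*} [Field K] (p : ℕ)

/-- The defining generators of the Steinberg subspace, in `kc` form. -/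
theorem steinberg_gen {f : K} (hf : f ≠ 0) (hf1 : 1 - f ≠ 0) :
    kc p f ⊗ₜ[ZMod p] kc p (1 - f) ∈ steinberg K p := by
  rw [kc_of_ne p hf, kc_of_ne p hf1]
  exact Submodule.subset_span ⟨f, hf, hf1, rfl⟩

/-- (St1): `[f] ⊗ [f + c^p]` is a Steinberg element (`c ≠ 0`). -/
theorem steinberg_add_pow [CharP K p] [Fact p.Prime] {f c : K} (hf : f ≠ 0) (hc : c ≠ 0)
    (hfc : f + c ^ p ≠ 0) :
    kc p f ⊗ₜ[ZMod p] kc p (f + c ^ p) ∈ steinberg K p := by
  have hcp : c ^ p ≠ 0 := pow_ne_zero p hc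
  have h1 : -f / c ^ p ≠ 0 := div_ne_zero (neg_ne_zero.2 hf) hcp
  have e2' : 1 - -f / c ^ p = (c⁻¹) ^ p * (f + c ^ p) := by
    rw [inv_pow]; field_simp; ring
  have h2 : 1 - -f / c ^ p ≠ 0 := by
    rw [e2']; exact mul_ne_zero (pow_ne_zero p (inv_ne_zero hc)) hfc
  have key := steinberg_gen p h1 h2
  have e1 : kc p (-f / c ^ p) = kc p f := by
    have : -f / c ^ p = (-(c⁻¹)) ^ p * f := by
      rw [neg_pow, neg_one_pow_char K p, inv_pow]; field_simp
    rw [this, kc_mul_pow p hf (neg_ne_zero.2 (inv_ne_zero hc))]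
  have e2 : kc p (1 - -f / c ^ p) = kc p (f + c ^ p) := by
    rw [e2', kc_mul_pow p hfc (inv_ne_zero hc)]
  rwa [e1, e2] at key

/-- (St2): `[b/a] ⊗ [(a+b)/a]` is a Steinberg element. -/
theorem steinberg_ratio [CharP K p] [Fact p.Prime] {a b : K} (ha : a ≠ 0) (hb : b ≠ 0)
    (hab : a + b ≠ 0) :
    kc p (b / a) ⊗ₜ[ZMod p] kc p ((a + b) / a) ∈ steinberg K p := by
  have h1 : -(b / a) ≠ 0 := neg_ne_zero.2 (div_ne_zero hb ha)
  have e2' : 1 - -(b / a) = (a + b) / a := by field_simp; ring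
  have h2 : 1 - -(b / a) ≠ 0 := by rw [e2']; exact div_ne_zero hab ha
  have key := steinberg_gen p h1 h2
  rwa [kc_neg, e2'] at key

/-- (St2) with the quotients expanded. -/
theorem steinberg_ratio' [CharP K p] [Fact p.Prime] {a b : K} (ha : a ≠ 0) (hb : b ≠ 0)
    (hab : a + b ≠ 0) :
    (kc p b - kc p a) ⊗ₜ[ZMod p] (kc p (a + b) - kc p a) ∈ steinberg K p := by
  have key := steinberg_ratio p ha hb hab
  rwa [kc_div p hb ha, kc_div p hab ha] at key

end steinbergGens

section compat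

variable {K L : Type*} [Field K] [Field L] {p : ℕ}

/-- (Tr): a compatible `Θ` maps Steinberg elements to Steinberg elements. -/
theorem isCompatible_map_mem {Θ : KOne K p ≃ₗ[ZMod p] KOne L p} (hΘ : IsCompatible Θ)
    {t : KOne K p ⊗[ZMod p] KOne K p} (ht : t ∈ steinberg K p) :
    TensorProduct.map Θ.toLinearMap Θ.toLinearMap t ∈ steinberg L p := by
  rw [← hΘ]; exact Submodule.mem_map_of_mem ht

theorem isCompatible_tmul_mem {Θ : KOne K p ≃ₗ[ZMod p] KOne L p} (hΘ : IsCompatible Θ)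
    {x y : KOne K p} (h : x ⊗ₜ[ZMod p] y ∈ steinberg K p) :
    Θ x ⊗ₜ[ZMod p] Θ y ∈ steinberg L p := by
  simpa using isCompatible_map_mem hΘ h

theorem isCompatible_symm {Θ : KOne K p ≃ₗ[ZMod p] KOne L p} (hΘ : IsCompatible Θ) :
    IsCompatible Θ.symm := by
  unfold IsCompatible at *
  rw [← hΘ, ← Submodule.map_comp]
  have : (TensorProduct.map Θ.symm.toLinearMap Θ.symm.toLinearMap).comp
      (TensorProduct.map Θ.toLinearMap Θ.toLinearMap) = LinearMap.id := by
    rw [← TensorProduct.map_comp]; simp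
  rw [this, Submodule.map_id]

/-- Rescaling a compatible `Θ` by a non-zero scalar keeps it compatible. -/
theorem isCompatible_smul [Fact p.Prime] {Θ : KOne K p ≃ₗ[ZMod p] KOne L p}
    (hΘ : IsCompatible Θ) {c : ZMod p} (hc : c ≠ 0) :
    IsCompatible (Θ.trans (LinearEquiv.smulOfNeZero (ZMod p) (KOne L p) c hc)) := by
  unfold IsCompatible at *
  have h : (Θ.trans (LinearEquiv.smulOfNeZero (ZMod p) (KOne L p) c hc)).toLinearMap
      = c • Θ.toLinearMap := by
    ext x; simp
  rw [h, TensorProduct.map_smul_left, TensorProduct.map_smul_right, smul_smul,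
    Submodule.map_smul _ _ _ (mul_ne_zero hc hc), hΘ]

theorem smulOfNeZero_trans_apply [Fact p.Prime] (Θ : KOne K p ≃ₗ[ZMod p] KOne L p)
    {c : ZMod p} (hc : c ≠ 0) (x : KOne K p) :
    (Θ.trans (LinearEquiv.smulOfNeZero (ZMod p) (KOne L p) c hc)) x = c • Θ x := by
  simp

end compat

section lift

variable {K : Type*} [Field K] (p : ℕ)
variable {N : Type*} [AddCommGroup N]

/-- An additive map on `Additive Kˣ` into a `p`-torsion group descends to `KOne K p`. -/
noncomputable def liftOne (hN : ∀ n : N, p • n = 0) (φ : Additive Kˣ →+ N) : KOne K p →+ N :=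
  QuotientAddGroup.lift (pMultiples K p) φ (by
    rintro x ⟨y, rfl⟩
    rw [AddMonoidHom.mem_ker]
    show φ (p • y) = 0
    rw [map_nsmul, hN])

theorem liftOne_cls (hN : ∀ n : N, p • n = 0) (φ : Additive Kˣ →+ N) (u : Kˣ) :
    liftOne p hN φ (cls K p u) = φ (Additive.ofMul u) := rfl

/-- (Lift) A map `β : Kˣ → Kˣ → N`, additive in each argument, into a `p`-torsion group `N`
induces an additive map on `KOne K p ⊗ KOne K p` with value `β u v` at `[u] ⊗ [v]`. -/
noncomputable def biLift [Fact p.Prime] (hN : ∀ n : N, p • n = 0) (β : Kˣ → Kˣ → N)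
    (hl : ∀ u v w, β (u * v) w = β u w + β v w) (hr : ∀ u v w, β u (v * w) = β u v + β u w) :
    KOne K p ⊗[ZMod p] KOne K p →+ N :=
  TensorProduct.liftAddHom
    (liftOne p (N := KOne K p →+ N) (fun f => by
        ext x; simp [hN])
      (AddMonoidHom.mk'
        (fun a => liftOne p hN
          (AddMonoidHom.mk' (fun b => β (Additive.toMul a) (Additive.toMul b))
            (fun b b' => hr _ _ _)))
        (fun a a' => by
          refine AddMonoidHom.ext fun x => ?_
          obtain ⟨u, rfl⟩ := cls_surjective p x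
          exact hl _ _ _)))
    (fun r m n => by
      rw [zmod_smul_eq_nsmul, zmod_smul_eq_nsmul, map_nsmul, AddMonoidHom.nsmul_apply,
        map_nsmul])

theorem biLift_cls [Fact p.Prime] (hN : ∀ n : N, p • n = 0) (β : Kˣ → Kˣ → N)
    (hl : ∀ u v w, β (u * v) w = β u w + β v w) (hr : ∀ u v w, β u (v * w) = β u v + β u w)
    (u v : Kˣ) :
    biLift p hN β hl hr (cls K p u ⊗ₜ[ZMod p] cls K p v) = β u v := rfl

/-- If `β` kills all pairs `(f, 1 - f)` then its lift kills the Steinberg subspace. -/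
theorem biLift_steinberg [Fact p.Prime] (hN : ∀ n : N, p • n = 0) (β : Kˣ → Kˣ → N)
    (hl : ∀ u v w, β (u * v) w = β u w + β v w) (hr : ∀ u v w, β u (v * w) = β u v + β u w)
    (hst : ∀ (f : K) (hf : f ≠ 0) (hf1 : 1 - f ≠ 0), β (Units.mk0 f hf) (Units.mk0 (1 - f) hf1) = 0)
    {t : KOne K p ⊗[ZMod p] KOne K p} (ht : t ∈ steinberg K p) :
    biLift p hN β hl hr t = 0 := by
  unfold steinberg at ht
  induction ht using Submodule.span_induction with
  | mem x hx =>
    obtain ⟨f, hf, hf1, rfl⟩ := hx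
    rw [biLift_cls]; exact hst f hf hf1
  | zero => exact map_zero _
  | add x y _ _ hx hy => rw [map_add, hx, hy, add_zero]
  | smul a x _ hx => rw [zmod_smul_eq_nsmul, map_nsmul, hx, nsmul_zero]

end lift

section derivI

variable {L : Type*} [Field L] (p : ℕ)

/-- Logarithmic derivatives are additive. -/
theorem dlog_mul (D : Derivation ℤ L L) {a b : L} (ha : a ≠ 0) (hb : b ≠ 0) :
    D (a * b) / (a * b) = D a / a + D b / b := by
  rw [Derivation.leibniz]
  simp only [smul_eq_mul]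
  field_simp
  ring

/-- A derivation of a field of characteristic `p` kills `p`-th powers. -/
theorem derivation_pow_char [CharP L p] (D : Derivation ℤ L L) (a : L) : D (a ^ p) = 0 := by
  rw [Derivation.leibniz_pow]
  simp

/-- (I), derivation form: if two derivations of `L` have non-zero Jacobian at `(u, v)` then
`[u] ⊗ [v]` is not in the Steinberg subspace. -/
theorem not_mem_steinberg_of_derivation [Fact p.Prime] [CharP L p] (D₁ D₂ : Derivation ℤ L L)
    {u v : L} (hu : u ≠ 0) (hv : v ≠ 0) (h : D₁ u * D₂ v - D₂ u * D₁ v ≠ 0) :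
    kc p u ⊗ₜ[ZMod p] kc p v ∉ steinberg L p := by
  intro hmem
  have hN : ∀ n : L, p • n = 0 := fun n => by
    rw [nsmul_eq_mul, CharP.cast_eq_zero L p, zero_mul]
  let β : Lˣ → Lˣ → L := fun a b =>
    (D₁ (a : L) / a) * (D₂ (b : L) / b) - (D₂ (a : L) / a) * (D₁ (b : L) / b)
  have hl : ∀ a a' b : Lˣ, β (a * a') b = β a b + β a' b := by
    intro a a' b
    simp only [β, Units.val_mul]
    rw [dlog_mul D₁ a.ne_zero a'.ne_zero, dlog_mul D₂ a.ne_zero a'.ne_zero]
    ring
  have hr : ∀ a b b' : Lˣ, β a (b * b') = β a b + β a b' := by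
    intro a b b'
    simp only [β, Units.val_mul]
    rw [dlog_mul D₁ b.ne_zero b'.ne_zero, dlog_mul D₂ b.ne_zero b'.ne_zero]
    ring
  have hst : ∀ (f : L) (hf : f ≠ 0) (hf1 : 1 - f ≠ 0),
      β (Units.mk0 f hf) (Units.mk0 (1 - f) hf1) = 0 := by
    intro f hf hf1
    simp only [β, Units.val_mk0, map_sub, Derivation.map_one_eq_zero, zero_sub]
    field_simp
    ring
  have key := biLift_steinberg p hN β hl hr hst hmem
  rw [kc_of_ne p hu, kc_of_ne p hv, biLift_cls] at key
  simp only [β, Units.val_mk0] at key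
  apply h
  field_simp at key
  linear_combination key

end derivI

end Crest.Agent.Helper22.S0010
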